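import Vale.Agent.Lib.P328.Fast

/-! Kernel checks for the row sums (1, 1, 1) (P328).  One theorem per composition (keeps the memory of the
kernel small); the modules `Cases.C*` import each other in a chain ON PURPOSE, so that they are never
compiled in parallel. -/

namespace Vale.Agent.Lib.P328

set_option maxRecDepth 100000 in
theorem c111_0 : checkSf 3 [1, 1, 1] 1 = true := by decide +kernel

set_option maxRecDepth 100000 in
theorem c111_1 : checkSf 2 [2, 1] 1 = true := by decide +kernel

set_option maxRecDepth 100000 in
theorem c111_2 : checkSf 2 [1, 2] 1 = true := by decide +kernel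

set_option maxRecDepth 100000 in
theorem c111_3 : checkSf 1 [3] 1 = true := by decide +kernel

theorem all111 : ∀ l ∈ comps 3, checkSf l.length l 1 = true := by
  intro l hl
  have h : comps 3 = [[1, 1, 1], [2, 1], [1, 2], [3]] := by decide
  rw [h] at hl
  simp only [List.mem_cons, List.not_mem_nil, or_false] at hl
  rcases hl with rfl | rfl | rfl | rfl
  · exact c111_0
  · exact c111_1
  · exact c111_2
  · exact c111_3

end Vale.Agent.Lib.P328
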