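import Vale.Agent.Lib.P328.Cases.C121

/-! Kernel checks for the row sums (2, 1, 1) (P328).  One theorem per composition (keeps the memory of the
kernel small); the modules `Cases.C*` import each other in a chain ON PURPOSE, so that they are never
compiled in parallel. -/

namespace Vale.Agent.Lib.P328

set_option maxRecDepth 100000 in
theorem c211_0 : checkf 4 [1, 1, 1, 1] (2, 1, 1) = true := by decide +kernel

set_option maxRecDepth 100000 in
theorem c211_1 : checkf 3 [2, 1, 1] (2, 1, 1) = true := by decide +kernel

set_option maxRecDepth 100000 in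
theorem c211_2 : checkf 3 [1, 2, 1] (2, 1, 1) = true := by decide +kernel

set_option maxRecDepth 100000 in
theorem c211_3 : checkf 2 [3, 1] (2, 1, 1) = true := by decide +kernel

set_option maxRecDepth 100000 in
theorem c211_4 : checkf 3 [1, 1, 2] (2, 1, 1) = true := by decide +kernel

set_option maxRecDepth 100000 in
theorem c211_5 : checkf 2 [2, 2] (2, 1, 1) = true := by decide +kernel

set_option maxRecDepth 100000 in
theorem c211_6 : checkf 2 [1, 3] (2, 1, 1) = true := by decide +kernel

set_option maxRecDepth 100000 in
theorem c211_7 : checkf 1 [4] (2, 1, 1) = true := by decide +kernel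

theorem all211 : ∀ l ∈ comps 4, checkf l.length l (2, 1, 1) = true := by
  intro l hl
  have h : comps 4 = [[1, 1, 1, 1], [2, 1, 1], [1, 2, 1], [3, 1], [1, 1, 2], [2, 2], [1, 3], [4]] := by decide
  rw [h] at hl
  simp only [List.mem_cons, List.not_mem_nil, or_false] at hl
  rcases hl with rfl | rfl | rfl | rfl | rfl | rfl | rfl | rfl
  · exact c211_0
  · exact c211_1
  · exact c211_2
  · exact c211_3
  · exact c211_4
  · exact c211_5
  · exact c211_6
  · exact c211_7

end Vale.Agent.Lib.P328
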